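import Vale.Agent.P157.Link

/-!
# P157: existence of the limit of the mean pressure of the Ising perceptron, at every density,
for all potentials `f` with `exp f` equal to a constant minus a positive definite function.
-/

open MeasureTheory ProbabilityTheory Filter Vale.Agent.P157
open scoped Topology

theorem Vale.Agent.Results.P157.LimitExists.result (f : ℝ → ℝ) (c : ℝ) (ν : Measure ℝ)
    [IsFiniteMeasure ν] (hf : ∀ s, Real.exp (f s) = c - ∫ t, Real.cos (t * s) ∂ν)
    (α : ℝ) (hα : 0 < α) :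
    (Continuous f ∧ ∃ B : ℝ, ∀ s, |f s| ≤ B) ∧
    ∃ L : ℝ, Tendsto (fun N : ℕ => meanPressure f α N) atTop (𝓝 L) ∧
      ∀ B : ℝ, (∀ s, |f s| ≤ B) → ∀ N : ℕ, 1 ≤ N →
        meanPressure f α N ≤ L + 2 * B * √(1 + α * N) / N := by
  have h : Hyp f c ν := hf
  obtain ⟨B, hB⟩ := h.bdd
  obtain ⟨L, hL, -⟩ := bb_tendsto h hB hα.le
  have e : (fun N : ℕ => meanPressure f α N) = fun N : ℕ => bb f α N / N :=
    funext fun N => mean_eq h.cont hB α N
  refine ⟨⟨h.cont, B, hB⟩, L, e ▸ hL, fun B' hB' N hN => ?_⟩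
  obtain ⟨L', hL', hle⟩ := bb_tendsto h hB' hα.le
  have hLL : L' = L := tendsto_nhds_unique hL' hL
  rw [mean_eq h.cont hB α N, ← hLL]
  have h1 := hle N hN
  rw [sub_div] at h1
  linarith
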